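import Vale.Agent.Lib.P066.Main

open MvPolynomial

/-- The chromatic quasisymmetric function of the natural unit interval graph of `h` on the vertices
`0, ..., n - 1` (an edge `{a, b}`, `a < b`, whenever `b ≤ h a`), in `N` variables, with coefficients
in `ℤ[q]`: the sum over the proper colourings `f` of `q ^ asc(f) * ∏ x_(f a)`. -/
noncomputable def Vale.Agent.Results.P066.KFourFree.chromaticQ (h : ℕ → ℕ) (n N : ℕ) :
    MvPolynomial (Fin N) (Polynomial ℤ) :=
  ∑ f : Fin n → Fin N,
    if ∀ a b : Fin n, a < b → b.val ≤ h a.val → f a ≠ f b then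
      C (Polynomial.X ^ (Finset.univ.filter (fun p : Fin n × Fin n =>
          p.1 < p.2 ∧ p.2.val ≤ h p.1.val ∧ f p.1 < f p.2)).card) * ∏ a, X (f a)
    else 0

/-- Shareshian-Wachs positivity for all `K₄`-free natural unit interval graphs (`h i ≤ i + 2`): there
are polynomials `c_λ(q)` with coefficients in `ℕ`, independent of the number `N` of variables, such
that `χ_G = ∑_(λ ⊢ n) c_λ(q) e_λ` in every number of variables. -/
theorem Vale.Agent.Results.P066.KFourFree.result (n : ℕ) (h : ℕ → ℕ) (hmono : Monotone h)
    (_hself : ∀ i, i ≤ h i) (hK4 : ∀ i, h i ≤ i + 2) :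
    ∃ c : Nat.Partition n → Polynomial ℕ, ∀ N : ℕ,
      Vale.Agent.Results.P066.KFourFree.chromaticQ h n N =
        ∑ p : Nat.Partition n,
          C ((c p).map (Nat.castRingHom ℤ)) *
            (p.parts.map (fun k => esymm (Fin N) (Polynomial ℤ) k)).prod := by
  classical
  obtain ⟨c, hc⟩ := P066.main_exists h hmono hK4 n
  refine ⟨c, fun N => ?_⟩
  apply IsFractionRing.injective (P066.RN N) (P066.FN N)
  -- the left-hand side
  have hL : algebraMap (P066.RN N) (P066.FN N) (Vale.Agent.Results.P066.KFourFree.chromaticQ h n N)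
      = P066.Z0 (P066.qF N) (P066.xF N) h n := by
    unfold Vale.Agent.Results.P066.KFourFree.chromaticQ P066.Z0
    rw [map_sum]
    refine Finset.sum_congr rfl (fun f _ => ?_)
    rw [P066.wt_eq]
    by_cases hP : ∀ a b : Fin n, a < b → b.val ≤ h a.val → f a ≠ f b
    · have hP' : P066.IsProperC h f := hP
      rw [if_pos hP, if_pos hP', map_mul, map_prod]
      congr 1
      unfold P066.ascC P066.qF
      rw [← map_pow, ← MvPolynomial.C_pow]
    · have hP' : ¬ P066.IsProperC h f := hP
      rw [if_neg hP, if_neg hP', map_zero]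
  -- the polynomial coefficients
  have hP : ∀ P : Polynomial ℕ, algebraMap (P066.RN N) (P066.FN N)
      (C (P.map (Nat.castRingHom ℤ))) = Polynomial.eval₂ (Nat.castRingHom (P066.FN N)) (P066.qF N) P := by
    intro P
    induction P using Polynomial.induction_on' with
    | add p r hp hr =>
      simp only [Polynomial.map_add, map_add, Polynomial.eval₂_add, hp, hr]
    | monomial k a =>
      rw [Polynomial.map_monomial, Polynomial.eval₂_monomial, ← Polynomial.C_mul_X_pow_eq_monomial,
        map_mul, map_mul, map_pow]
      unfold P066.qF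
      simp
  have hE : ∀ s : Multiset ℕ, algebraMap (P066.RN N) (P066.FN N)
      (s.map (fun k => esymm (Fin N) (Polynomial ℤ) k)).prod
        = (s.map (P066.esymK (P066.xF N))).prod := by
    intro s
    rw [map_multiset_prod, Multiset.map_map]
    congr 1
    refine Multiset.map_congr rfl (fun k _ => ?_)
    simp only [Function.comp]
    unfold P066.esymK P066.xF
    rw [MvPolynomial.esymm, map_sum]
    refine Finset.sum_congr rfl (fun S _ => ?_)
    rw [map_prod]
  rw [hL, hc N, map_sum]
  refine Finset.sum_congr rfl (fun p _ => ?_)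
  rw [map_mul, hP, hE]
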